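import Vale.Agent.P125.Smooth
import Vale.Agent.P125.Growth

open scoped BigOperators Topology

namespace Vale.Agent.Results.P125.MarkovTypeSmooth

open Vale.Agent.P125

universe u

theorem result (X : Type u) [NormedAddCommGroup X] [NormedSpace ℝ X] (p : ℝ) (hp : 1 < p)
    (hX : HasMarkovType X p) :
    ∃ N : Seminorm ℝ X, EquivNorm N ∧ UniformlySmooth N := by
  obtain ⟨K, hK, hM⟩ := hX
  refine smooth_of_growth fun c hc => ?_
  by_contra hcon
  push Not at hcon
  have hF : Fact (1 ≤ ENNReal.ofReal p) := ⟨by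
    rw [← ENNReal.ofReal_one]
    exact ENNReal.ofReal_le_ofReal hp.le⟩
  obtain ⟨n, hn⟩ := no_window.{u} hp hK (θ := c / 4) (by positivity)
  obtain ⟨Ω, _, hW⟩ := window_of_growth hc hcon p hp.le n
  exact hn _ (markov_pi p K hp.le hM Ω) hW

end Vale.Agent.Results.P125.MarkovTypeSmooth
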