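import Vale.Agent.P125.SuperDefs
import Vale.Agent.P125.Bush
import Vale.Agent.P125.Growth

namespace Vale.Agent.Results.P125.Superreflexive

open Vale.Agent.P125

universe u

theorem result (X : Type u) [NormedAddCommGroup X] [NormedSpace ℝ X] [CompleteSpace X]
    (hX : NontrivialMarkovType X) : Superreflexive X := by
  obtain ⟨p, hp, K, hK, hM⟩ := hX
  have hM' : MarkovTypeWith X p K := fun n π P => hM (Fin n) π P
  have hF : Fact (1 ≤ ENNReal.ofReal p) := ⟨by
    rw [← ENNReal.ofReal_one]
    exact ENNReal.ofReal_le_ofReal hp.le⟩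
  refine convex_of_bush fun ε hε => ?_
  by_contra hcon
  push Not at hcon
  obtain ⟨n, hn⟩ := no_window.{u} hp hK (θ := ε / 4) (by positivity)
  obtain ⟨Ω, _, hW⟩ := window_of_bush hε n (hcon n) p hp.le
  exact hn _ (markov_pi p K hp.le hM' Ω) hW

end Vale.Agent.Results.P125.Superreflexive
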